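import Vale.Agent.Lib.P335.H8.PairRel
import Vale.Agent.Lib.P335.Gr.Flip
import Vale.Agent.Lib.P335.H16.PairAlg

/-!
# From the abstract pair inequality to the graph form of the disjoint-pair inequality

For disjoint vertex pairs `b`, `c` the abstract pair inequality is applied to
`gavg b`, `gavg c`, the averages over the private slots of `b` and of `c`, and the average over
the four shared slots (which is the mean of `f` and of `f` composed with the flip). This file
identifies the terms of its conclusion with the flip energy and with `kap`, and leaves one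
hypothesis: the part of the cross term away from the alternating graphs is nonnegative on
functions invariant under the three slot averages.
-/

namespace Vale.Agent.Lib.P335.H4

open Finset
open Classical
open Vale.Agent.Lib.P335 Vale.Agent.Lib.P335.Gr Vale.Agent.Lib.P335.H8

variable {n : ℕ} {d : Fin n → ℕ}

/-- For disjoint vertex sets the slots between them are the shared slots. -/
theorem cross_eq_crossS {b c : Finset (Fin n)} (hd : Disjoint b c) : cross b c = crossS b c := by
  ext e
  induction e using Sym2.ind with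
  | _ x y =>
    rw [mem_crossS_of_disjoint hd]
    unfold cross
    simp only [mem_image, mem_product, Prod.exists]
    constructor
    · rintro ⟨p, q, ⟨hp, hq⟩, hpq⟩
      rcases Sym2.eq_iff.mp hpq with ⟨rfl, rfl⟩ | ⟨rfl, rfl⟩
      · exact Or.inl ⟨hp, hq⟩
      · exact Or.inr ⟨hq, hp⟩
    · rintro (⟨hx, hy⟩ | ⟨hx, hy⟩)
      · exact ⟨x, y, ⟨hx, hy⟩, rfl⟩
      · exact ⟨y, x, ⟨hy, hx⟩, Sym2.eq_swap⟩

/-- The class of `G` for the shared slots consists of `G` and its flip. -/
theorem ecls_cross {b c : Finset (Fin n)} (hb : b.card = 2) (hc : c.card = 2)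
    (hd : Disjoint b c) (G : Omega d) :
    ecls (AgreeS (d := d) (crossS b c)) G = {G, flip b c G} := by
  ext G'
  rw [mem_ecls, mem_insert, mem_singleton]
  constructor
  · intro h
    have h' : ∀ e, e ∉ cross b c → (e ∈ G.1 ↔ e ∈ G'.1) := by
      rw [cross_eq_crossS hd]
      exact h
    exact eq_or_eq_flip hb hc hd G G' h'
  · rintro (rfl | rfl)
    · exact (agreeS_equiv _).refl _
    · intro e he
      rw [← cross_eq_crossS hd] at he
      exact flip_agree_off_cross b c G e he

/-- The average over the shared slots is the mean of `f` and of `f` after the flip. -/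
theorem avgS_cross {b c : Finset (Fin n)} (hb : b.card = 2) (hc : c.card = 2)
    (hd : Disjoint b c) (f : Omega d → ℝ) (G : Omega d) :
    avgS (crossS b c) f G = (f G + f (flip b c G)) / 2 := by
  unfold avgS eavg
  rw [ecls_cross hb hc hd]
  by_cases hA : IsAlt b c G.1
  · have hne : G ≠ flip b c G := (flip_ne_self hb hc hd hA).symm
    rw [sum_pair hne, card_pair hne]
    norm_num
  · rw [flip_of_not hA]
    simp

/-- The odd part under the flip has squared norm a quarter of the flip energy. -/
theorem ip_sub_cross {b c : Finset (Fin n)} (hb : b.card = 2) (hc : c.card = 2)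
    (hd : Disjoint b c) (f : Omega d → ℝ) :
    Bip.ip (f - avgS (crossS b c) f) (f - avgS (crossS b c) f) = (1 / 4) * fenergy b c f := by
  unfold Bip.ip fenergy
  rw [mul_sum]
  refine sum_congr rfl fun G _ => ?_
  simp only [Pi.sub_apply]
  rw [avgS_cross hb hc hd]
  ring

/-- Agreement outside the private slots of `b`: same class of `b` and same shared slots. -/
theorem agreeS_ownS_iff {b c : Finset (Fin n)} (hd : Disjoint b c) (G G' : Omega d) :
    AgreeS (ownS b c) G G' ↔ GAgree b G.1 G'.1 ∧ ∀ e ∈ cross b c, (e ∈ G.1 ↔ e ∈ G'.1) := by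
  constructor
  · intro h
    refine ⟨(gagree_iff_agreeS b G G').mpr (agreeS_mono (ownS_subset b c) h), fun e he => ?_⟩
    apply h
    rw [cross_eq_crossS hd] at he
    exact fun h' => (Finset.disjoint_left.mp (disjoint_ownS_crossS b c)) h' he
  · rintro ⟨h1, h2⟩ e he
    by_cases hs : e ∈ slotsAt b
    · have hcr : e ∈ crossS b c := by
        simp only [ownS, mem_sdiff, not_and, not_not] at he
        exact mem_inter.mpr ⟨hs, he hs⟩
      rw [← cross_eq_crossS hd] at hcr
      exact h2 e hcr
    · exact (gagree_iff b G.1 G'.1).mp h1 e hs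

/-- Being alternating depends only on the shared slots. -/
theorem isAlt_congr {b c : Finset (Fin n)} {E E' : Finset (Sym2 (Fin n))}
    (h : ∀ e ∈ cross b c, (e ∈ E ↔ e ∈ E')) : IsAlt b c E ↔ IsAlt b c E' := by
  unfold IsAlt
  have h1 : ∀ v ∈ b, c.filter (fun z => s(v, z) ∈ E) = c.filter (fun z => s(v, z) ∈ E') := by
    intro v hv
    exact filter_congr fun z hz => h _ (mem_cross_of_mem hv hz)
  have h2 : ∀ z ∈ c, b.filter (fun v => s(v, z) ∈ E) = b.filter (fun v => s(v, z) ∈ E') := by
    intro z hz
    exact filter_congr fun v hv => h _ (mem_cross_of_mem hv hz)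
  constructor
  · rintro ⟨k1, k2⟩
    exact ⟨fun v hv => by rw [← h1 v hv]; exact k1 v hv,
      fun z hz => by rw [← h2 z hz]; exact k2 z hz⟩
  · rintro ⟨k1, k2⟩
    exact ⟨fun v hv => by rw [h1 v hv]; exact k1 v hv,
      fun z hz => by rw [h2 z hz]; exact k2 z hz⟩

/-- The set of alternating graphs is a union of classes of the private slots of `b`. -/
theorem isAlt_of_agreeS_ownS {b c : Finset (Fin n)} (hd : Disjoint b c) {G G' : Omega d}
    (h : AgreeS (ownS b c) G G') : IsAlt b c G.1 ↔ IsAlt b c G'.1 :=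
  isAlt_congr ((agreeS_ownS_iff hd G G').mp h).2

/-- Two alternating edge sets have equal or complementary shared slots. -/
theorem alt_cross_cases {b c : Finset (Fin n)} (hb : b.card = 2) (hc : c.card = 2)
    {E E' : Finset (Sym2 (Fin n))} (h : IsAlt b c E) (h' : IsAlt b c E') :
    (∀ e ∈ cross b c, (e ∈ E ↔ e ∈ E')) ∨ (∀ e ∈ cross b c, (e ∈ E ↔ e ∉ E')) := by
  obtain ⟨u, w, huw, rfl⟩ := card_eq_two.mp hb
  obtain ⟨x, y, hxy, rfl⟩ := card_eq_two.mp hc
  rw [cross_pair]
  rcases (isAlt_pair huw hxy E).mp h with ⟨a1, a2, a3, a4⟩ | ⟨a1, a2, a3, a4⟩ <;>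
    rcases (isAlt_pair huw hxy E').mp h' with ⟨b1, b2, b3, b4⟩ | ⟨b1, b2, b3, b4⟩
  · left
    intro e he
    simp only [mem_insert, mem_singleton] at he
    rcases he with rfl | rfl | rfl | rfl <;> tauto
  · right
    intro e he
    simp only [mem_insert, mem_singleton] at he
    rcases he with rfl | rfl | rfl | rfl <;> tauto
  · right
    intro e he
    simp only [mem_insert, mem_singleton] at he
    rcases he with rfl | rfl | rfl | rfl <;> tauto
  · left
    intro e he
    simp only [mem_insert, mem_singleton] at he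
    rcases he with rfl | rfl | rfl | rfl <;> tauto

/-- On an alternating graph the flip complements the shared slots. -/
theorem mem_flip_cross {b c : Finset (Fin n)} (hb : b.card = 2) (hc : c.card = 2)
    (hd : Disjoint b c) {G : Omega d} (hG : IsAlt b c G.1) {e : Sym2 (Fin n)}
    (he : e ∈ cross b c) : e ∈ (flip b c G).1 ↔ e ∉ G.1 := by
  rw [flip_val hb hc hd]
  unfold flipSet
  rw [if_pos hG]
  exact mem_symmDiff_of_mem_right he

/-- Two alternating graphs in one class of `b` agree outside the private slots of `b`,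
possibly after flipping one of them. -/
theorem alt_agree_cases {b c : Finset (Fin n)} (hb : b.card = 2) (hc : c.card = 2)
    (hd : Disjoint b c) {G G' : Omega d} (hG : IsAlt b c G.1) (hG' : IsAlt b c G'.1)
    (h : GAgree b G.1 G'.1) :
    AgreeS (ownS b c) G G' ∨ AgreeS (ownS b c) G (flip b c G') := by
  rcases alt_cross_cases hb hc hG hG' with k | k
  · left
    exact (agreeS_ownS_iff hd G G').mpr ⟨h, k⟩
  · right
    refine (agreeS_ownS_iff hd G _).mpr ⟨h.trans (gagree_flip_left b c G'), fun e he => ?_⟩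
    rw [k e he, mem_flip_cross hb hc hd hG' he]

/-- The flip of an alternating graph leaves its class of the private slots of `b`. -/
theorem not_agreeS_ownS_flip {b c : Finset (Fin n)} (hb : b.card = 2) (hc : c.card = 2)
    (hd : Disjoint b c) {G : Omega d} (hG : IsAlt b c G.1) :
    ¬ AgreeS (ownS b c) G (flip b c G) := by
  intro h
  obtain ⟨v, hv⟩ : b.Nonempty := by
    rw [← card_pos, hb]
    norm_num
  obtain ⟨z, hz⟩ : c.Nonempty := by
    rw [← card_pos, hc]
    norm_num
  have he := mem_cross_of_mem hv hz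
  have h1 := ((agreeS_ownS_iff hd G (flip b c G)).mp h).2 _ he
  have h2 := mem_flip_cross hb hc hd hG he
  tauto

/-- The alternating part of the class of `b`: the class of the private slots of `b` and its
image under the flip. -/
theorem altCls_eq {b c : Finset (Fin n)} (hb : b.card = 2) (hc : c.card = 2)
    (hd : Disjoint b c) (G : Omega d) (hG : IsAlt b c G.1) :
    altCls b c G = ecls (AgreeS (d := d) (ownS b c)) G
      ∪ (ecls (AgreeS (d := d) (ownS b c)) G).image (flip b c) := by
  ext G'
  simp only [altCls, mem_filter, mem_gcls, mem_union, mem_image, mem_ecls]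
  constructor
  · rintro ⟨h1, h2⟩
    rcases alt_agree_cases hb hc hd hG h2 h1 with k | k
    · exact Or.inl k
    · exact Or.inr ⟨flip b c G', k, Gr.flip_flip b c G'⟩
  · rintro (k | ⟨G'', k, rfl⟩)
    · have hk := (agreeS_ownS_iff hd G G').mp k
      exact ⟨hk.1, (isAlt_congr hk.2).mp hG⟩
    · have hk := (agreeS_ownS_iff hd G G'').mp k
      exact ⟨hk.1.trans (gagree_flip_left b c G''),
        (isAlt_flip_iff hb hc hd G'').mpr ((isAlt_congr hk.2).mp hG)⟩

theorem flip_injective (b c : Finset (Fin n)) : Function.Injective (flip (d := d) b c) := by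
  intro x y hxy
  have h := congrArg (flip b c) hxy
  rwa [Gr.flip_flip, Gr.flip_flip] at h

/-- On alternating graphs, averaging over the shared slots and then over the private slots of
`b` is averaging over the alternating part of the class of `b`. -/
theorem avg_own_cross_alt {b c : Finset (Fin n)} (hb : b.card = 2) (hc : c.card = 2)
    (hd : Disjoint b c) (h : Omega d → ℝ) (G : Omega d) (hG : IsAlt b c G.1) :
    avgS (ownS b c) (avgS (crossS b c) h) G
      = (∑ G' ∈ altCls b c G, h G') / ((altCls b c G).card : ℝ) := by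
  set A : Finset (Omega d) := ecls (AgreeS (d := d) (ownS b c)) G with hA
  have hinj := flip_injective (d := d) b c
  have hdisj : Disjoint A (A.image (flip b c)) := by
    rw [disjoint_left]
    intro G' h1 h2
    obtain ⟨G'', h3, rfl⟩ := mem_image.mp h2
    rw [hA, mem_ecls] at h1 h3
    have hG'' : IsAlt b c G''.1 := (isAlt_of_agreeS_ownS hd h3).mp hG
    exact not_agreeS_ownS_flip hb hc hd hG''
      ((agreeS_equiv _).trans ((agreeS_equiv _).symm h3) h1)
  have e1 : altCls b c G = A ∪ A.image (flip b c) := altCls_eq hb hc hd G hG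
  have e2 : ∑ G' ∈ altCls b c G, h G' = ∑ G' ∈ A, (h G' + h (flip b c G')) := by
    rw [e1, sum_union hdisj, sum_image (fun x _ y _ hxy => hinj hxy), sum_add_distrib]
  have e3 : ((altCls b c G).card : ℝ) = 2 * (A.card : ℝ) := by
    rw [e1, card_union_of_disjoint hdisj, card_image_of_injective _ hinj]
    push_cast
    ring
  have hApos : (0 : ℝ) < (A.card : ℝ) := card_ecls_pos (agreeS_equiv _) G
  have e4 : avgS (ownS b c) (avgS (crossS b c) h) G
      = (∑ G' ∈ A, (h G' + h (flip b c G')) / 2) / (A.card : ℝ) := by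
    show (∑ y ∈ A, avgS (crossS b c) h y) / (A.card : ℝ) = _
    congr 1
    exact sum_congr rfl fun y _ => avgS_cross hb hc hd h y
  rw [e4, e2, e3, ← sum_div]
  field_simp

/-- The sum over alternating graphs of the squared double average is `kap`. -/
theorem sum_alt_eq_kap {b c : Finset (Fin n)} (hb : b.card = 2) (hc : c.card = 2)
    (hd : Disjoint b c) (h : Omega d → ℝ) :
    ∑ G ∈ univ.filter (fun G : Omega d => IsAlt b c G.1),
      (avgS (ownS b c) (avgS (crossS b c) h) G) ^ 2 = kap b c h := by
  unfold kap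
  refine sum_congr rfl fun G hG => ?_
  rw [avg_own_cross_alt hb hc hd h G (mem_filter.mp hG).2]

/-- The same with the roles of `b` and `c` exchanged, written for the alternating set and the
shared slots of the ordered pair `b`, `c`. -/
theorem sum_alt_eq_kap' {b c : Finset (Fin n)} (hb : b.card = 2) (hc : c.card = 2)
    (hd : Disjoint b c) (h : Omega d → ℝ) :
    ∑ G ∈ univ.filter (fun G : Omega d => IsAlt b c G.1),
      (avgS (ownS c b) (avgS (crossS b c) h) G) ^ 2 = kap c b h := by
  rw [← sum_alt_eq_kap hc hb hd.symm h, crossS_comm b c]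
  refine sum_congr ?_ fun _ _ => rfl
  exact filter_congr fun G _ => isAlt_comm b c G.1

/-- The average over the private slots of `b` commutes with cutting off to the alternating
graphs. -/
theorem alt_ind_comm {b c : Finset (Fin n)} (hd : Disjoint b c) (N : Finset (Omega d))
    (hN : ∀ G : Omega d, G ∈ N ↔ IsAlt b c G.1) (inst : ∀ G : Omega d, Decidable (G ∈ N))
    (k : Omega d → ℝ) :
    avgS (ownS b c) (fun G => @ite ℝ (G ∈ N) (inst G) (k G) 0)
      = fun G => @ite ℝ (G ∈ N) (inst G) (avgS (ownS b c) k G) 0 := by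
  funext G
  show (∑ y ∈ ecls (AgreeS (d := d) (ownS b c)) G, @ite ℝ (y ∈ N) (inst y) (k y) 0)
        / ((ecls (AgreeS (d := d) (ownS b c)) G).card : ℝ)
      = @ite ℝ (G ∈ N) (inst G)
        ((∑ y ∈ ecls (AgreeS (d := d) (ownS b c)) G, k y)
          / ((ecls (AgreeS (d := d) (ownS b c)) G).card : ℝ)) 0
  by_cases hG : IsAlt b c G.1
  · rw [if_pos ((hN G).mpr hG)]
    congr 1
    refine sum_congr rfl fun G' hG' => ?_
    rw [mem_ecls] at hG'
    rw [if_pos ((hN G').mpr ((isAlt_of_agreeS_ownS hd hG').mp hG))]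
  · have hG2 : G ∉ N := fun hh => hG ((hN G).mp hh)
    rw [if_neg hG2]
    have hz : ∑ y ∈ ecls (AgreeS (d := d) (ownS b c)) G, @ite ℝ (y ∈ N) (inst y) (k y) 0 = 0 := by
      refine sum_eq_zero fun G' hG' => ?_
      rw [mem_ecls] at hG'
      have hG3 : G' ∉ N := fun hh =>
        hG ((isAlt_of_agreeS_ownS hd hG').mpr ((hN G').mp hh))
      rw [if_neg hG3]
    rw [hz, zero_div]

theorem alt_ind_comm' {b c : Finset (Fin n)} (hd : Disjoint b c) (N : Finset (Omega d))
    (hN : ∀ G : Omega d, G ∈ N ↔ IsAlt b c G.1) (inst : ∀ G : Omega d, Decidable (G ∈ N))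
    (k : Omega d → ℝ) :
    avgS (ownS c b) (fun G => @ite ℝ (G ∈ N) (inst G) (k G) 0)
      = fun G => @ite ℝ (G ∈ N) (inst G) (avgS (ownS c b) k G) 0 :=
  alt_ind_comm hd.symm N (fun G => (hN G).trans (isAlt_comm b c G.1)) inst k

theorem isAvg_gavg (W : Finset (Fin n)) : H16.IsAvg (gavg (d := d) W) :=
  ⟨gavg_add W, gavg_sub W, gavg_symm W, gavg_idem W⟩

theorem isAvg_avgS (Sg : Finset (Sym2 (Fin n))) : H16.IsAvg (avgS (d := d) Sg) :=
  ⟨avgS_add Sg, avgS_sub Sg, avgS_symm_ip Sg, avgS_idem Sg⟩

/-- The disjoint-pair inequality in its graph form, assuming only that the part of the cross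
term away from the alternating graphs is nonnegative for functions invariant under the three
slot averages. -/
theorem graph_PI_of {b c : Finset (Fin n)} (hb : b.card = 2) (hc : c.card = 2)
    (hd : Disjoint b c)
    (hN1 : ∀ g : Omega d → ℝ, avgS (ownS b c) g = g → avgS (ownS c b) g = g →
      avgS (crossS b c) g = g →
      ∑ G ∈ univ.filter (fun G : Omega d => IsAlt b c G.1), (g - gavg b g) G * (g - gavg c g) G
        ≤ Bip.ip (g - gavg b g) (g - gavg c g))
    (f : Omega d → ℝ) :
    (1 / 2) * fenergy b c f - kap b c (f - gavg b f) - kap c b (f - gavg c f)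
      ≤ 2 * Bip.ip (f - gavg b f) (f - gavg c f) := by
  have hN : ∀ G : Omega d, G ∈ univ.filter (fun G : Omega d => IsAlt b c G.1) ↔ IsAlt b c G.1 :=
    fun G => by rw [mem_filter]; exact ⟨fun h => h.2, fun h => ⟨mem_univ _, h⟩⟩
  have q1 : ∀ f : Omega d → ℝ, gavg b (avgS (ownS b c) f) = gavg b f :=
    fun f => (gavg_ownS b c f).2
  have q2 : ∀ f : Omega d → ℝ, avgS (ownS b c) (gavg b f) = gavg b f :=
    fun f => (gavg_ownS b c f).1
  have q3 : ∀ f : Omega d → ℝ, gavg b (avgS (crossS b c) f) = gavg b f :=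
    fun f => (gavg_crossS b c f).2
  have q4 : ∀ f : Omega d → ℝ, avgS (crossS b c) (gavg b f) = gavg b f :=
    fun f => (gavg_crossS b c f).1
  have q5 : ∀ f : Omega d → ℝ, gavg c (avgS (ownS c b) f) = gavg c f :=
    fun f => (gavg_ownS c b f).2
  have q6 : ∀ f : Omega d → ℝ, avgS (ownS c b) (gavg c f) = gavg c f :=
    fun f => (gavg_ownS c b f).1
  have q7 : ∀ f : Omega d → ℝ, gavg c (avgS (crossS b c) f) = gavg c f :=
    fun f => (gavg_crossS' b c f).2
  have q8 : ∀ f : Omega d → ℝ, avgS (crossS b c) (gavg c f) = gavg c f :=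
    fun f => (gavg_crossS' b c f).1
  have q9 : ∀ f : Omega d → ℝ, avgS (ownS b c) (avgS (ownS c b) f)
      = avgS (ownS c b) (avgS (ownS b c) f) := fun f => ownS_comm b c f
  have q10 : ∀ f : Omega d → ℝ, avgS (ownS b c) (avgS (crossS b c) f)
      = avgS (crossS b c) (avgS (ownS b c) f) := fun f => ownS_crossS_comm b c f
  have q11 : ∀ f : Omega d → ℝ, avgS (ownS c b) (avgS (crossS b c) f)
      = avgS (crossS b c) (avgS (ownS c b) f) := fun f => ownS_crossS_comm' b c f
  have q12 : ∀ f : Omega d → ℝ, gavg b (avgS (ownS c b) f) = avgS (ownS c b) (gavg b f) :=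
    fun f => gavg_ownS_comm b c f
  have q13 : ∀ f : Omega d → ℝ, gavg c (avgS (ownS b c) f) = avgS (ownS b c) (gavg c f) :=
    fun f => gavg_ownS_comm c b f
  have key := H16.pair_alg (gavg (d := d) b) (gavg c) (avgS (ownS b c)) (avgS (ownS c b))
    (avgS (crossS b c)) (isAvg_gavg b) (isAvg_gavg c) (isAvg_avgS _) (isAvg_avgS _)
    (isAvg_avgS _) q1 q2 q3 q4 q5 q6 q7 q8 q9 q10 q11 q12 q13
    (univ.filter (fun G : Omega d => IsAlt b c G.1))
    (alt_ind_comm hd _ hN _) (alt_ind_comm' hd _ hN _) hN1 f
  rw [ip_sub_cross hb hc hd, sum_alt_eq_kap hb hc hd, sum_alt_eq_kap' hb hc hd] at key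
  linarith

end Vale.Agent.Lib.P335.H4
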